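import Vale.Agent.P331.Greedy

/-! P331: the rule, and its analysis for fixed pairs of numbers. -/

namespace Vale.Agent.P331

open MeasureTheory Set Function
open scoped NNReal ENNReal

variable {α : Type} [Fintype α] [DecidableEq α] (M : Matroid α) (Φ : α → Bool)

/-- Replacing the weight of `e` by `x` would move a marked element of `P` in or out of the greedy
basis. -/
def blk (P : List α) (W : α → ℝ≥0) (e : α) (x : ℝ≥0) : Prop :=
  ∃ f ∈ P, Φ f = true ∧ f ≠ e ∧ ¬ (f ∈ gb M W ↔ f ∈ gb M (update W e x))

open Classical in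
/-- The current weights; the history lists the latest arrival first. -/
noncomputable def st (S : α → ℝ≥0) : List (α × ℝ≥0) → α → ℝ≥0
  | [] => S
  | p :: h => if blk M Φ (h.map Prod.fst) (st S h) p.1 p.2 then st S h
      else update (st S h) p.1 p.2

/-- The decision. -/
def ac (S : α → ℝ≥0) (h : List (α × ℝ≥0)) (e : α) (x : ℝ≥0) : Prop :=
  Φ e = true ∧ ¬ blk M Φ (h.map Prod.fst) (st M Φ S h) e x ∧ e ∈ gb M (update (st M Φ S h) e x)

omit [Fintype α] [DecidableEq α] in
theorem map_fst (l : List α) (V : α → ℝ≥0) : (l.map fun f => (f, V f)).map Prod.fst = l := by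
  simp [Function.comp_def]

variable {M Φ}

theorem ac_stays (S V : α → ℝ≥0) {e : α} (l₁ l₂ : List α) (he : e ∉ l₂)
    (h : ac M Φ S (l₁.map fun f => (f, V f)) e (V e)) :
    e ∈ gb M (st M Φ S ((l₂ ++ e :: l₁).map fun f => (f, V f))) := by
  induction l₂ with
  | nil =>
    rw [List.nil_append, List.map_cons, st, if_neg h.2.1]
    exact h.2.2
  | cons g l₂ ih =>
    have h1 := ih fun h' => he (List.mem_cons_of_mem _ h')
    rw [List.cons_append, List.map_cons, st]
    split_ifs with hb
    · exact h1
    · by_contra h2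
      refine hb ⟨e, ?_, h.1, fun h3 => he (h3 ▸ List.mem_cons_self), fun h3 => h2 (h3.1 h1)⟩
      rw [map_fst]
      simp

omit [Fintype α] in
theorem split_at {l : List α} {e : α} (he : e ∈ l) :
    ∃ r, l = l.takeWhile (fun f => f ≠ e) ++ e :: r := by
  induction l with
  | nil => simp at he
  | cons g l ih =>
    by_cases h : g = e
    · subst h
      exact ⟨l, by simp⟩
    · obtain ⟨r, hr⟩ := ih ((List.mem_cons.1 he).resolve_left fun h' => h h'.symm)
      refine ⟨r, ?_⟩
      rw [List.takeWhile_cons_of_pos (by simpa using h), List.cons_append, ← hr]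

theorem ac_indep (S V : α → ℝ≥0) {l : List α} (hl : l.Nodup) :
    M.Indep {e | e ∈ l ∧ ac M Φ S (past l V e).reverse e (V e)} := by
  refine (gb_indep (st M Φ S (l.reverse.map fun f => (f, V f)))).subset fun e he => ?_
  obtain ⟨r, hr⟩ := split_at he.1
  have h1 : e ∉ r := by
    rw [hr] at hl
    exact (List.nodup_cons.1 (List.nodup_append.1 hl).2.1).1
  have h2 := he.2
  rw [past, ← List.map_reverse] at h2
  have h3 := ac_stays S V _ r.reverse (by simpa using h1) h2
  rwa [hr, List.reverse_append, List.reverse_cons, List.append_assoc, List.singleton_append]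

section Meas
variable {Ω : Type} [MeasurableSpace Ω]

theorem meas_blk (P : List α) {W : Ω → α → ℝ≥0} (hW : Measurable W) (e : α) {x : Ω → ℝ≥0}
    (hx : Measurable x) : Measurable fun q => blk M Φ P (W q) e (x q) :=
  Measurable.exists fun f => measurable_const.and (measurable_const.and (measurable_const.and
    (((meas_gb f).comp hW).iff
      ((meas_gb f).comp (measurable_update'.comp (hW.prodMk hx)))).not))

theorem meas_st {S V : Ω → α → ℝ≥0} (hS : Measurable S) (hV : Measurable V) (l : List α) :
    Measurable fun q => st M Φ (S q) (l.map fun f => (f, V q f)) := by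
  induction l with
  | nil => exact hS
  | cons e l ih =>
    have hx : Measurable fun q => V q e := (measurable_pi_apply e).comp hV
    simp only [List.map_cons, st]
    refine Measurable.ite (measurableSet_setOfPred.2 ?_) ih
      (measurable_update'.comp (ih.prodMk hx))
    simp only [map_fst]
    exact meas_blk l ih e hx

theorem meas_ac {S V : Ω → α → ℝ≥0} (hS : Measurable S) (hV : Measurable V) (l : List α) (e : α) :
    Measurable fun q => ac M Φ (S q) (l.map fun f => (f, V q f)) e (V q e) := by
  have hx : Measurable fun q => V q e := (measurable_pi_apply e).comp hV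
  simp only [ac, map_fst]
  exact measurable_const.and ((meas_blk l (meas_st hS hV l) e hx).not.and
    ((meas_gb e).comp (measurable_update'.comp ((meas_st hS hV l).prodMk hx))))

end Meas

/-- The rule. -/
def rule (M : Matroid α) : Rule M (α → Bool) where
  acc Φ S h e x := ac M Φ S h.reverse e x
  meas l e := by
    refine measurableSet_setOfPred.2 (measurable_from_prod_countable_right fun Φ => ?_)
    simp only [← List.map_reverse]
    exact meas_ac measurable_fst measurable_snd _ e
  indep _ S V _ hl := ac_indep S V hl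

/-- The choice of one number in every pair. -/
def val (p : (α → ℝ≥0) × (α → ℝ≥0)) (c : α → Bool) (e : α) : ℝ≥0 :=
  if c e = true then p.2 e else p.1 e

/-- The other number. -/
def vol (p : (α → ℝ≥0) × (α → ℝ≥0)) (c : α → Bool) (e : α) : ℝ≥0 :=
  if c e = true then p.1 e else p.2 e

/-- Turn one coin. -/
def turn (e : α) (c : α → Bool) : α → Bool := update c e (!c e)

omit [Fintype α] in
theorem turn_turn (e : α) (c : α → Bool) : turn e (turn e c) = c := by simp [turn]

omit [Fintype α] in
theorem turn_bij (e : α) : Bijective (turn e : (α → Bool) → α → Bool) :=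
  Involutive.bijective (turn_turn e)

omit [Fintype α] in
theorem val_turn (p : (α → ℝ≥0) × (α → ℝ≥0)) (c : α → Bool) (e : α) :
    update (val p c) e (vol p c e) = val p (turn e c) := by
  funext f
  by_cases h : f = e
  · subst h
    cases hc : c f <;> simp [val, vol, turn, hc]
  · simp [val, turn, h]

variable (M Φ) (p : (α → ℝ≥0) × (α → ℝ≥0))

/-- Blocking in terms of coins. -/
def bc (l : List α) (e : α) (c : α → Bool) : Prop :=
  ∃ f ∈ l, Φ f = true ∧ f ≠ e ∧ ¬ (f ∈ gb M (val p c) ↔ f ∈ gb M (val p (turn e c)))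

theorem blk_iff (l : List α) (e : α) (c : α → Bool) :
    blk M Φ l (val p c) e (vol p c e) ↔ bc M Φ p l e c := by
  rw [blk, val_turn, bc]

theorem bc_turn (l : List α) (e : α) (c : α → Bool) :
    bc M Φ p l e (turn e c) ↔ bc M Φ p l e c := by
  simp only [bc, turn_turn, iff_comm (a := _ ∈ gb M (val p (turn e c)))]

open Classical in
/-- The evolution of the coins. -/
noncomputable def evo : List α → (α → Bool) → α → Bool
  | [], c => c
  | e :: l, c => if bc M Φ p l e (evo l c) then evo l c else turn e (evo l c)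

theorem evo_out {l : List α} {e : α} (he : e ∉ l) (c : α → Bool) : evo M Φ p l c e = c e := by
  induction l with
  | nil => rfl
  | cons g l ih =>
    have h1 := ih fun h => he (List.mem_cons_of_mem _ h)
    have h2 : e ≠ g := fun h => he (h ▸ List.mem_cons_self)
    rw [evo]
    split_ifs
    · exact h1
    · rw [turn, update_of_ne h2, h1]

theorem vol_evo {l : List α} {e : α} (he : e ∉ l) (c : α → Bool) :
    vol p c e = vol p (evo M Φ p l c) e := by
  rw [vol, vol, evo_out M Φ p he]

theorem st_eq {l : List α} (hl : l.Nodup) (c : α → Bool) :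
    st M Φ (val p c) (l.map fun f => (f, vol p c f)) = val p (evo M Φ p l c) := by
  induction l with
  | nil => rfl
  | cons e l ih =>
    have h1 := List.nodup_cons.1 hl
    rw [List.map_cons, st, map_fst, ih h1.2, evo]
    dsimp only
    rw [vol_evo M Φ p h1.1 c, val_turn]
    by_cases hb : bc M Φ p l e (evo M Φ p l c)
    · rw [if_pos hb, if_pos ((blk_iff M Φ p l e _).2 hb)]
    · rw [if_neg hb, if_neg fun h => hb ((blk_iff M Φ p l e _).1 h)]

theorem evo_bij (l : List α) : Bijective (evo M Φ p l) := by
  classical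
  induction l with
  | nil => exact bijective_id
  | cons e l ih =>
    have h : Involutive fun c => if bc M Φ p l e c then c else turn e c := fun c => by
      by_cases hb : bc M Φ p l e c
      · simp only [if_pos hb]
      · simp only [if_neg hb, bc_turn, turn_turn]
    exact h.bijective.comp ih

open Classical in
theorem sum_ac {l : List α} (hl : l.Nodup) {e : α} (he : e ∉ l) :
    ∑ c, (if Φ e = true ∧ (∀ f, Φ f = true → f ≠ e →
        (f ∈ gb M (val p c) ↔ f ∈ gb M (val p (turn e c)))) ∧ e ∈ gb M (val p c) then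
        (val p c e : ℝ≥0∞) else 0) ≤
      ∑ c, (if ac M Φ (val p c) (l.map fun f => (f, vol p c f)) e (vol p c e) then
        (vol p c e : ℝ≥0∞) else 0) := by
  rw [← ((turn_bij e).comp (evo_bij M Φ p l)).sum_comp]
  refine Finset.sum_le_sum fun c _ => ?_
  simp only [comp_apply, ac, map_fst, st_eq M Φ p hl, vol_evo M Φ p he c, blk_iff, val_turn,
    turn_turn]
  split_ifs with h1 h2
  · rw [← val_turn, update_self]
  · exact absurd ⟨h1.1, fun ⟨f, _, a, b, d⟩ => d (h1.2.1 f a b).symm, h1.2.2⟩ h2
  · exact zero_le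
  · exact le_rfl

theorem count_seeds (good : (α → Bool) → Prop) [DecidablePred good] (e f : α)
    (h : ∀ Φ : α → Bool, Φ e = true → (f ≠ e → Φ f = false) → good Φ) :
    (Fintype.card (α → Bool) : ℝ≥0∞) ≤ 4 * ∑ Φ, if good Φ then 1 else 0 := by
  have h1 := (turn_bij e).sum_comp fun Φ => if good Φ then (1 : ℝ≥0∞) else 0
  have h2 := (turn_bij f).sum_comp fun Φ => if good Φ then (1 : ℝ≥0∞) else 0
  have h3 := ((turn_bij e).comp (turn_bij f)).sum_comp fun Φ => if good Φ then (1 : ℝ≥0∞) else 0
  have h4 : (4 : ℝ≥0∞) * ∑ Φ, (if good Φ then 1 else 0) = ∑ Φ, ((if good Φ then (1 : ℝ≥0∞) else 0)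
      + (if good (turn e Φ) then 1 else 0) + (if good (turn f Φ) then 1 else 0) +
        if good ((turn e ∘ turn f) Φ) then 1 else 0) := by
    rw [Finset.sum_add_distrib, Finset.sum_add_distrib, Finset.sum_add_distrib, h1, h2, h3]
    ring
  rw [h4, ← Finset.card_univ, Finset.card_eq_sum_ones, Nat.cast_sum]
  refine Finset.sum_le_sum fun Φ _ => ?_
  have h5 : good Φ ∨ good (turn e Φ) ∨ good (turn f Φ) ∨ good ((turn e ∘ turn f) Φ) := by
    by_cases hfe : f = e
    · subst hfe
      cases h6 : Φ f
      · exact Or.inr (Or.inl (h _ (by simp [turn, h6]) fun h7 => absurd rfl h7))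
      · exact Or.inl (h _ h6 fun h7 => absurd rfl h7)
    · have hef : e ≠ f := fun h' => hfe h'.symm
      cases h6 : Φ e <;> cases h7 : Φ f
      · exact Or.inr (Or.inl (h _ (by simp [turn, h6]) fun _ => by simp [turn, hfe, h7]))
      · exact Or.inr (Or.inr (Or.inr (h _ (by simp [turn, h6, hef])
          fun _ => by simp [turn, hfe, h7])))
      · exact Or.inl (h _ h6 fun _ => h7)
      · exact Or.inr (Or.inr (Or.inl (h _ (by simp [turn, h6, hef]) fun _ => by simp [turn, h7])))
  rw [Nat.cast_one]
  rcases h5 with h5 | h5 | h5 | h5 <;> rw [if_pos h5]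
  · exact le_add_right (le_add_right (le_add_right le_rfl))
  · exact le_add_right (le_add_right le_add_self)
  · exact le_add_right le_add_self
  · exact le_add_self

/-- The estimate for fixed pairs. -/
theorem pair_est (ord : (α → Bool) → List α) (h1 : ∀ Φ, (ord Φ).Nodup) (h2 : ∀ Φ e, e ∈ ord Φ) :
    (Fintype.card (α → Bool) : ℝ≥0∞) * ∑ c, opt M (val p c) ≤
      4 * ∑ Φ, ∑ c, (rule M).gain (Φ, val p c, vol p c) (ord Φ) := by
  classical
  have k1 : ∀ Φ, ∑ e, ∑ c, (if Φ e = true ∧ (∀ f, Φ f = true → f ≠ e →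
        (f ∈ gb M (val p c) ↔ f ∈ gb M (val p (turn e c)))) ∧ e ∈ gb M (val p c) then
        (val p c e : ℝ≥0∞) else 0) ≤ ∑ c, (rule M).gain (Φ, val p c, vol p c) (ord Φ) := by
    intro Φ
    simp only [Rule.gain]
    rw [Finset.sum_comm (s := (Finset.univ : Finset (α → Bool)))]
    refine Finset.sum_le_sum fun e _ => ?_
    have a1 : ((ord Φ).takeWhile fun f => f ≠ e).reverse.Nodup :=
      List.nodup_reverse.2 ((h1 Φ).sublist (List.takeWhile_sublist _))
    have a2 : e ∉ ((ord Φ).takeWhile fun f => f ≠ e).reverse := fun h => by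
      simpa using List.mem_takeWhile_imp (List.mem_reverse.1 h)
    refine (sum_ac M Φ p a1 a2).trans (le_of_eq (Finset.sum_congr rfl fun c _ => ?_))
    rw [indicator_apply]
    refine if_congr ?_ rfl rfl
    simp only [mem_ofPred_eq, h2 Φ e, true_and, rule, past, List.map_reverse]
  have k2 : ∀ e c, (Fintype.card (α → Bool) : ℝ≥0∞) *
      (gb M (val p c)).indicator (fun e => (val p c e : ℝ≥0∞)) e ≤
      4 * ∑ Φ : α → Bool, (if Φ e = true ∧ (∀ f, Φ f = true → f ≠ e →
        (f ∈ gb M (val p c) ↔ f ∈ gb M (val p (turn e c)))) ∧ e ∈ gb M (val p c) then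
        (val p c e : ℝ≥0∞) else 0) := by
    intro e c
    by_cases he : e ∈ gb M (val p c)
    swap
    · simp [he]
    obtain ⟨f, hf⟩ : ∃ f, ∀ g, g ≠ e →
        ¬ (g ∈ gb M (val p c) ↔ g ∈ gb M (val p (turn e c))) → g = f ∧ f ≠ e := by
      by_cases h : ∃ f, f ≠ e ∧ ¬ (f ∈ gb M (val p c) ↔ f ∈ gb M (val p (turn e c)))
      · obtain ⟨f, h3, h4⟩ := h
        refine ⟨f, fun g h5 h6 => ⟨change_unique (fun x hx => ?_) h5 h3 h6 h4, h3⟩⟩
        rw [← val_turn, update_of_ne hx]
      · exact ⟨e, fun g h5 h6 => absurd ⟨g, h5, h6⟩ h⟩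
    have h7 := count_seeds (fun Φ => Φ e = true ∧ (∀ f, Φ f = true → f ≠ e →
        (f ∈ gb M (val p c) ↔ f ∈ gb M (val p (turn e c)))) ∧ e ∈ gb M (val p c)) e f
      fun Φ a b => ⟨a, fun g h8 h9 => by
        by_contra h10
        obtain ⟨rfl, h11⟩ := hf g h9 h10
        rw [b h11] at h8
        exact absurd h8 (by decide), he⟩
    rw [indicator_of_mem he]
    refine (mul_le_mul_left h7 _).trans (le_of_eq ?_)
    rw [mul_assoc, Finset.sum_mul]
    refine congrArg _ (Finset.sum_congr rfl fun Φ _ => ?_)
    rw [ite_mul, one_mul, zero_mul]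
  calc _ ≤ ∑ c, ∑ e, (Fintype.card (α → Bool) : ℝ≥0∞) *
        (gb M (val p c)).indicator (fun e => (val p c e : ℝ≥0∞)) e := by
        rw [Finset.mul_sum]
        refine Finset.sum_le_sum fun c _ => ?_
        rw [← Finset.mul_sum]
        exact mul_le_mul_right (opt_le _) _
    _ ≤ _ := by
        refine (Finset.sum_le_sum fun c _ => Finset.sum_le_sum fun e _ => k2 e c).trans ?_
        simp only [← Finset.mul_sum]
        refine mul_le_mul_right ?_ _
        rw [Finset.sum_comm]
        refine le_trans (le_of_eq ?_) (Finset.sum_le_sum fun Φ _ => k1 Φ)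
        rw [Finset.sum_comm (s := (Finset.univ : Finset (α → Bool))) (t := Finset.univ (α := α))]
        exact Finset.sum_congr rfl fun e _ => Finset.sum_comm

end Vale.Agent.P331
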