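import Mathlib

/-! P331: one sample prophet inequalities on matroids, definitions. -/

namespace Vale.Agent.P331

open MeasureTheory
open scoped NNReal ENNReal

variable {α : Type} [Fintype α] [DecidableEq α]

/-- The largest total value of an independent set. -/
noncomputable def opt (M : Matroid α) (v : α → ℝ≥0) : ℝ≥0∞ :=
  ⨆ (I : Finset α) (_ : M.Indep (I : Set α)), ∑ e ∈ I, (v e : ℝ≥0∞)

/-- The elements that come before `e` in the arrival list `l`, in order, with their values. -/
def past (l : List α) (V : α → ℝ≥0) (e : α) : List (α × ℝ≥0) :=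
  (l.takeWhile fun f => f ≠ e).map fun f => (f, V f)

/-- Seed, samples, values. -/
abbrev Out (α ρ : Type) : Type := ρ × (α → ℝ≥0) × (α → ℝ≥0)

/-- An online rule with seeds in `ρ`.  The decision on the arriving element depends only on the
seed, the samples, the earlier arrivals with their values, the element and its value. -/
structure Rule (M : Matroid α) (ρ : Type) [MeasurableSpace ρ] where
  acc : ρ → (α → ℝ≥0) → List (α × ℝ≥0) → α → ℝ≥0 → Prop
  meas : ∀ (l : List α) (e : α), MeasurableSet
    {q : Out α ρ | acc q.1 q.2.1 (l.map fun f => (f, q.2.2 f)) e (q.2.2 e)}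
  indep : ∀ (R : ρ) (S V : α → ℝ≥0) (l : List α), l.Nodup →
    M.Indep {e | e ∈ l ∧ acc R S (past l V e) e (V e)}

/-- The total value accepted when the elements arrive in the order `l`. -/
noncomputable def Rule.gain {M : Matroid α} {ρ : Type} [MeasurableSpace ρ] (r : Rule M ρ)
    (q : Out α ρ) (l : List α) : ℝ≥0∞ :=
  ∑ e, {e | e ∈ l ∧ r.acc q.1 q.2.1 (past l q.2.2 e) e (q.2.2 e)}.indicator
    (fun e => (q.2.2 e : ℝ≥0∞)) e

/-- A measurable choice of the arrival order as a function of seed, samples and values. -/
structure Adv (α ρ : Type) [MeasurableSpace ρ] where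
  ord : Out α ρ → List α
  nodup : ∀ q, (ord q).Nodup
  all : ∀ q e, e ∈ ord q
  meas : ∀ l, MeasurableSet {q | ord q = l}

/-- The order depends on samples and values only through the unordered pairs `{S e, V e}`. -/
def Adv.PairBlind {α ρ : Type} [MeasurableSpace ρ] (π : Adv α ρ) : Prop :=
  ∀ (R : ρ) (S V S' V' : α → ℝ≥0),
    (∀ e, (S' e = S e ∧ V' e = V e) ∨ (S' e = V e ∧ V' e = S e)) →
      π.ord (R, S', V') = π.ord (R, S, V)

/-- The joint law: seed, samples and values are mutually independent. -/
noncomputable def law {ρ : Type} [MeasurableSpace ρ] (ν : Measure ρ) (D : α → Measure ℝ≥0) :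
    Measure (Out α ρ) :=
  ν.prod ((Measure.pi D).prod (Measure.pi D))

end Vale.Agent.P331
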