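import Vale.Agent.P331.Alg

/-! P331: averaging over the pairs. -/

namespace Vale.Agent.P331

open MeasureTheory ProbabilityTheory Set Function
open scoped NNReal ENNReal

variable {α : Type} [Fintype α] [DecidableEq α]

omit [DecidableEq α] in
theorem swap_pres (D : α → Measure ℝ≥0) [∀ e, IsProbabilityMeasure (D e)] (c : α → Bool) :
    MeasurePreserving (fun p : (α → ℝ≥0) × (α → ℝ≥0) => (val p c, vol p c))
      ((Measure.pi D).prod (Measure.pi D)) ((Measure.pi D).prod (Measure.pi D)) := by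
  have h1 := measurePreserving_arrowProdEquivProdArrow ℝ≥0 ℝ≥0 α D D
  have h2 := measurePreserving_pi (fun e => (D e).prod (D e)) (fun e => (D e).prod (D e))
    (f := fun e (x : ℝ≥0 × ℝ≥0) => if c e = true then x.swap else x) fun e => by
      cases c e
      · exact MeasurePreserving.id _
      · exact Measure.measurePreserving_swap
  have h3 := h1.comp (h2.comp (h1.symm _))
  have h4 : (fun p : (α → ℝ≥0) × (α → ℝ≥0) => (val p c, vol p c)) =
      MeasurableEquiv.arrowProdEquivProdArrow ℝ≥0 ℝ≥0 α ∘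
        (fun (a : α → ℝ≥0 × ℝ≥0) e => if c e = true then (a e).swap else a e) ∘
        (MeasurableEquiv.arrowProdEquivProdArrow ℝ≥0 ℝ≥0 α).symm := by
    funext p
    refine Prod.ext (funext fun e => ?_) (funext fun e => ?_)
    · cases h : c e <;> simp [MeasurableEquiv.arrowProdEquivProdArrow, val, h]
    · cases h : c e <;> simp [MeasurableEquiv.arrowProdEquivProdArrow, vol, h]
  rw [h4]
  exact h3

theorem meas_gain {M : Matroid α} {ρ : Type} [MeasurableSpace ρ] (r : Rule M ρ) (π : Adv α ρ) :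
    Measurable fun q => r.gain q (π.ord q) := by
  classical
  refine Finset.measurable_sum _ fun e _ => ?_
  simp only [indicator_apply, mem_ofPred_eq]
  refine Measurable.ite ?_
    ((measurable_pi_apply e).comp (measurable_snd.comp measurable_snd)).coe_nnreal_ennreal
    measurable_const
  have h : {q : Out α ρ | e ∈ π.ord q ∧ r.acc q.1 q.2.1 (past (π.ord q) q.2.2 e) e (q.2.2 e)} =
      ⋃ l : List α, {q | π.ord q = l} ∩ {q | r.acc q.1 q.2.1
        ((l.takeWhile fun f => f ≠ e).map fun f => (f, q.2.2 f)) e (q.2.2 e)} := by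
    ext q
    simp only [mem_ofPred_eq, mem_iUnion, mem_inter_iff, π.all, true_and, past]
    exact ⟨fun h => ⟨_, rfl, h⟩, fun ⟨_, h1, h2⟩ => h1 ▸ h2⟩
  rw [h]
  exact MeasurableSet.iUnion fun l => (π.meas l).inter (r.meas _ e)

theorem main (M : Matroid α) (D : α → Measure ℝ≥0) [∀ e, IsProbabilityMeasure (D e)]
    (π : Adv α (α → Bool)) (hπ : π.PairBlind) :
    ∫⁻ q, opt M q.2.2 ∂law (uniformOn (univ : Set (α → Bool))) D ≤
      4 * ∫⁻ q, (rule M).gain q (π.ord q) ∂law (uniformOn (univ : Set (α → Bool))) D := by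
  set μ := (Measure.pi D).prod (Measure.pi D) with hμ
  set N : ℝ≥0∞ := (Fintype.card (α → Bool) : ℝ≥0∞) with hN
  have hN0 : N ≠ 0 := by simp [hN]
  have hN1 : N ≠ ⊤ := ENNReal.natCast_ne_top _
  have hg := meas_gain (rule M) π
  have hg' : ∀ Φ, Measurable fun p => (rule M).gain (Φ, p) (π.ord (Φ, p)) := fun Φ =>
    hg.comp measurable_prodMk_left
  have ho : Measurable (opt M) := meas_opt
  have e1 : ∫⁻ q, opt M q.2.2 ∂law (uniformOn (univ : Set (α → Bool))) D =
      ∫⁻ v, opt M v ∂Measure.pi D :=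
    (measurePreserving_snd.comp measurePreserving_snd).lintegral_comp ho
  have e2 : ∀ c, ∫⁻ p, opt M (val p c) ∂μ = ∫⁻ v, opt M v ∂Measure.pi D := fun c =>
    (measurePreserving_fst.comp (swap_pres D c)).lintegral_comp ho
  have e3 : N * ∫⁻ q, (rule M).gain q (π.ord q) ∂law (uniformOn univ) D =
      ∑ Φ, ∫⁻ p, (rule M).gain (Φ, p) (π.ord (Φ, p)) ∂μ := by
    rw [law, lintegral_prod _ hg.aemeasurable, lintegral_fintype, Finset.mul_sum]
    refine Finset.sum_congr rfl fun Φ _ => ?_
    rw [uniformOn_univ, Measure.count_singleton, mul_comm N, mul_assoc,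
      ENNReal.div_mul_cancel hN0 hN1, mul_one]
  have e4 : ∀ Φ c (p : (α → ℝ≥0) × (α → ℝ≥0)),
      π.ord (Φ, val p c, vol p c) = π.ord (Φ, p) := fun Φ c p =>
    hπ Φ p.1 p.2 _ _ fun e => by cases h : c e <;> simp [val, vol, h]
  have m1 : ∀ Φ c, Measurable fun p : (α → ℝ≥0) × (α → ℝ≥0) =>
      (rule M).gain (Φ, val p c, vol p c) (π.ord (Φ, val p c, vol p c)) := fun Φ c =>
    (hg' Φ).comp (swap_pres D c).measurable
  have e5 : N * (N * ∫⁻ v, opt M v ∂Measure.pi D) ≤
      4 * (N * ∑ Φ, ∫⁻ p, (rule M).gain (Φ, p) (π.ord (Φ, p)) ∂μ) := by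
    have m2 : ∀ c, Measurable fun p : (α → ℝ≥0) × (α → ℝ≥0) => opt M (val p c) := fun c =>
      ho.comp (swap_pres D c).measurable.fst
    calc _ = ∫⁻ p, N * ∑ c, opt M (val p c) ∂μ := by
          rw [lintegral_const_mul _ (Finset.measurable_sum _ fun c _ => m2 c),
            lintegral_finsetSum _ fun c _ => m2 c]
          simp only [e2, Finset.sum_const, Finset.card_univ, nsmul_eq_mul, hN]
      _ ≤ ∫⁻ p, 4 * ∑ Φ, ∑ c, (rule M).gain (Φ, val p c, vol p c)
            (π.ord (Φ, val p c, vol p c)) ∂μ := by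
          refine lintegral_mono fun p => ?_
          simp only [e4]
          exact pair_est M p (fun Φ => π.ord (Φ, p)) (fun _ => π.nodup _) fun _ => π.all _
      _ = _ := by
          rw [lintegral_const_mul _ (Finset.measurable_sum _ fun Φ _ =>
            Finset.measurable_sum _ fun c _ => m1 Φ c),
            lintegral_finsetSum _ fun Φ _ => Finset.measurable_sum _ fun c _ => m1 Φ c,
            Finset.mul_sum (a := N)]
          refine congrArg _ (Finset.sum_congr rfl fun Φ _ => ?_)
          rw [lintegral_finsetSum _ fun c _ => m1 Φ c]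
          refine (Finset.sum_congr rfl fun c _ => (swap_pres D c).lintegral_comp (hg' Φ)).trans ?_
          simp only [Finset.sum_const, Finset.card_univ, nsmul_eq_mul, hN, hμ]
  rw [← e3, mul_left_comm 4, mul_left_comm 4, ENNReal.mul_le_mul_iff_right hN0 hN1,
    ENNReal.mul_le_mul_iff_right hN0 hN1] at e5
  rw [e1]
  exact e5

end Vale.Agent.P331
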