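import Vale.Agent.P331.Defs

/-! P331: definitions for the rule that works against the almighty adversary. -/

namespace Vale.Agent.P331.Full

open Finset

variable {α : Type} [Fintype α] [DecidableEq α]

/-- The properties of a matroid rank function that are used. -/
structure IsRk (r : Finset α → ℕ) : Prop where
  empty : r ∅ = 0
  mono : ∀ {A B : Finset α}, A ⊆ B → r A ≤ r B
  ins : ∀ (e : α) (A : Finset α), r (insert e A) ≤ r A + 1
  sub : ∀ A B : Finset α, r (A ∪ B) + r (A ∩ B) ≤ r A + r B

/-- The span of `A`. -/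
def cl (r : Finset α → ℕ) (A : Finset α) : Finset α :=
  univ.filter fun e => r (insert e A) = r A

/-- The rank of `Y` after contracting `T`. -/
def rc (r : Finset α → ℕ) (Y T : Finset α) : ℝ := (r (T ∪ Y) : ℝ) - r T

/-- The density objective. -/
def dv (r : Finset α → ℕ) (D S : Finset α) : ℤ := ((D ∩ S).card : ℤ) - 16384 * (r S : ℤ)

/-- The largest maximizer of the density objective above `B`. -/
def ex (r : Finset α → ℕ) (D B : Finset α) : Finset α :=
  (univ.filter fun S : Finset α => B ⊆ S ∧ ∀ T, B ⊆ T → dv r D T ≤ dv r D S).sup id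

/-- The nominal path before the expansion of level `h`, at depth `s`. -/
def pB (r : Finset α → ℕ) (Dl Cl : ℕ → Finset α) : ℕ → ℕ → Finset α
  | 0, s => if s = 0 then univ else ∅
  | h + 1, s => if s ≤ h + 1 then ex r (Dl h) (pB r Dl Cl h s) ∪
      (Cl h ∩ ex r (Dl h) (pB r Dl Cl h (s - 1))) else ∅

/-- The nominal path after the expansion of level `h`, at depth `s`. -/
def pN (r : Finset α → ℕ) (Dl Cl : ℕ → Finset α) (h s : ℕ) : Finset α :=
  if s ≤ h + 1 then ex r (Dl h) (pB r Dl Cl h s) else ∅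

open Classical in
/-- The union of the path over all levels. -/
noncomputable def pX (r : Finset α → ℕ) (Dl Cl : ℕ → Finset α) (s : ℕ) : Finset α :=
  univ.filter fun e => ∃ h, e ∈ pN r Dl Cl h s

/-- The comparison path for layer `s`, which receives the sets `Ul`, before the expansion. -/
def qB (r : Finset α → ℕ) (Dl : ℕ → Finset α) (s : ℕ) (Ul : ℕ → Finset α) : ℕ → Finset α
  | 0 => ∅
  | h + 1 => if s ≤ h then ex r (Dl h) (qB r Dl s Ul h) ∪ Ul h else ∅

/-- The comparison path after the expansion. -/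
def qN (r : Finset α → ℕ) (Dl : ℕ → Finset α) (s : ℕ) (Ul : ℕ → Finset α) (h : ℕ) : Finset α :=
  ex r (Dl h) (qB r Dl s Ul h)

/-- The window of level `h` in layer `s`. -/
def win (r : Finset α → ℕ) (Dl Cl Rl : ℕ → Finset α) (h s : ℕ) : Finset α :=
  if s ≤ h then (Rl h ∩ pN r Dl Cl h s) \ pN r Dl Cl h (s + 1) else ∅

/-- What the comparison path of layer `s` receives. -/
def qU (r : Finset α → ℕ) (Dl Cl Rl : ℕ → Finset α) (s h : ℕ) : Finset α :=
  (Cl h ∩ pN r Dl Cl h (s + 1)) ∪ win r Dl Cl Rl h s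

/-- The flat that contains the context and the lighter windows of layer `s`. -/
def pQ (r : Finset α → ℕ) (Dl Cl Rl : ℕ → Finset α) (h s : ℕ) : Finset α :=
  qN r Dl s (qU r Dl Cl Rl s) h

/-- The slice of level `h`. -/
def sl (lev : α → ℕ) (A : Finset α) (h : ℕ) : Finset α := A.filter fun e => lev e = h

/-- Density sample, guards, and real elements, by level. -/
def sD (F : Finset α) (lev : α → ℕ) (Dc : Finset α) : ℕ → Finset α := sl lev (F ∩ Dc)

def sC (F : Finset α) (lev : α → ℕ) (Dc Gc : Finset α) : ℕ → Finset α := sl lev ((F \ Dc) ∩ Gc)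

def sR (F : Finset α) (lev : α → ℕ) (Dc Gc Rc : Finset α) : ℕ → Finset α :=
  sl lev (((F \ Dc) \ Gc) ∩ Rc)

/-- The path, its union, the comparison flats and the windows, from the coins. -/
def cN (r : Finset α → ℕ) (F : Finset α) (lev : α → ℕ) (Dc Gc : Finset α) (h s : ℕ) : Finset α :=
  pN r (sD F lev Dc) (sC F lev Dc Gc) h s

noncomputable def cX (r : Finset α → ℕ) (F : Finset α) (lev : α → ℕ) (Dc Gc : Finset α) (s : ℕ) :
    Finset α :=
  pX r (sD F lev Dc) (sC F lev Dc Gc) s

def cQ (r : Finset α → ℕ) (F : Finset α) (lev : α → ℕ) (Dc Gc Rc : Finset α) (h s : ℕ) :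
    Finset α :=
  pQ r (sD F lev Dc) (sC F lev Dc Gc) (sR F lev Dc Gc Rc) h s

/-- The eligible real elements of layer `s`. -/
def cW (r : Finset α → ℕ) (F : Finset α) (lev : α → ℕ) (Dc Gc Rc : Finset α) (s : ℕ) :
    Finset α :=
  (((F \ Dc) \ Gc) ∩ Rc).filter fun e =>
    s ≤ lev e ∧ e ∈ cN r F lev Dc Gc (lev e) s ∧ e ∉ cN r F lev Dc Gc (lev e) (s + 1)

/-- The safe elements of level `h` in layer `s` outside the density sample. -/
def cY (r : Finset α → ℕ) (F : Finset α) (lev : α → ℕ) (Dc Gc Rc : Finset α) (h s : ℕ) :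
    Finset α :=
  ((sl lev (F \ Dc) h ∩ cN r F lev Dc Gc h s) \ cN r F lev Dc Gc h (s + 1)) \
    cQ r F lev Dc Gc Rc h s

/-- The context together with the lighter windows. -/
noncomputable def cT (r : Finset α → ℕ) (F : Finset α) (lev : α → ℕ) (Dc Gc Rc : Finset α)
    (h s : ℕ) : Finset α :=
  cX r F lev Dc Gc (s + 2) ∪ (cW r F lev Dc Gc Rc s).filter fun e => lev e < h

/-- The number of safe elements of level `h`. -/
def cy (r : Finset α → ℕ) (F : Finset α) (lev : α → ℕ) (Dc Gc Rc : Finset α) (h : ℕ) : ℝ :=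
  ∑ s ∈ range (h + 1), ((cY r F lev Dc Gc Rc h s).card : ℝ)

/-- Their rank over the comparison flats. -/
def crho (r : Finset α → ℕ) (F : Finset α) (lev : α → ℕ) (Dc Gc Rc : Finset α) (h : ℕ) : ℝ :=
  ∑ s ∈ range (h + 1), rc r (cY r F lev Dc Gc Rc h s) (cQ r F lev Dc Gc Rc h s)

/-- The rank of the windows of level `h` over context and lighter windows. -/
noncomputable def cg (r : Finset α → ℕ) (F : Finset α) (lev : α → ℕ) (Dc Gc Rc : Finset α)
    (h : ℕ) : ℝ :=
  ∑ s ∈ range (h + 1), rc r (sl lev (cW r F lev Dc Gc Rc s) h) (cT r F lev Dc Gc Rc h s)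

/-- The elements before `e` in the list. -/
def bef (l : List α) (e : α) : Finset α := (l.takeWhile fun f => f ≠ e).toFinset

open Classical in
/-- The accepted set: greedy in every layer of parity `ε`, over the context two steps deeper. -/
noncomputable def accS (r : Finset α → ℕ) (X W : ℕ → Finset α) (ε : ℕ) (l : List α) : Finset α :=
  l.toFinset.filter fun e =>
    ∃ s, s % 2 = ε ∧ e ∈ W s ∧ e ∉ cl r (X (s + 2) ∪ (W s ∩ bef l e))

/-- The weight of a set when every element is included independently with probability `p`. -/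
def wt (p : ℝ) (A : Finset α) : ℝ := ∏ e, if e ∈ A then p else 1 - p

/-- The expectation over a random set. -/
def Ex (p : ℝ) (f : Finset α → ℝ) : ℝ := ∑ A, wt p A * f A

/-- The rate of guards. -/
noncomputable def pc : ℝ := 1 / 2 ^ 24

/-- The rate of real elements. -/
noncomputable def pd : ℝ := 1 / 2 ^ 31

/-- The expectation over the three families of coins. -/
noncomputable def E3 (f : Finset α → Finset α → Finset α → ℝ) : ℝ :=
  Ex (1 / 2) fun Dc => Ex pc fun Gc => Ex pd fun Rc => f Dc Gc Rc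

/-- The context of a pivot. -/
def ctx (K : ℕ → Finset α) (J : Finset α) (pos τ : α → ℕ) (j : α) : Finset α :=
  K (τ j) ∪ J.filter fun i => pos i < pos j

/-- The elements of `G` that enter the span with the pivot `j`. -/
def own (r : Finset α → ℕ) (G : Finset α) (K : ℕ → Finset α) (J : Finset α) (pos τ : α → ℕ)
    (j : α) : Finset α :=
  (G ∩ cl r (insert j (ctx K J pos τ j))) \ cl r (ctx K J pos τ j)

/-- A schedule of pivots along a decreasing chain `K`. -/
structure Sched (r : Finset α → ℕ) (K : ℕ → Finset α) (J : Finset α) (pos τ : α → ℕ) : Prop where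
  inj : ∀ i ∈ J, ∀ j ∈ J, pos i = pos j → i = j
  time : ∀ i ∈ J, ∀ j ∈ J, pos i < pos j → τ j ≤ τ i
  new : ∀ j ∈ J, j ∉ cl r (ctx K J pos τ j)

/-- The level and the sign of a weight. -/
abbrev Code : Type := ℤ × Bool

/-- The code of a number. -/
noncomputable def code (w : NNReal) : Code := (Int.log 1024 (w : ℝ), decide (0 < w))

/-- The rounded weight. -/
noncomputable def rw1 (x : Code) : ℝ := (1024 : ℝ) ^ x.1

/-- Elements of positive weight that are not loops. -/
def Ep (r : Finset α → ℕ) (z : α → Code) : Finset α :=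
  univ.filter fun e => (z e).2 = true ∧ r {e} = 1

/-- The sorting key. -/
noncomputable def ky (x : Code) (e : α) : ℤ ×ₗ ℕ := toLex (x.1, (Fintype.equivFin α e : ℕ))

/-- The filter given by the first sample `O`. -/
def filt (r : Finset α → ℕ) (O : Finset α) (z : α → Code) (e : α) (x : Code) : Prop :=
  x.2 = true ∧ r {e} = 1 ∧ e ∉ O ∧
    e ∉ cl r ((O ∩ Ep r z).filter fun f => ky x e < ky (z f) f) ∧
      ∀ o ∈ O ∩ Ep r z, (z o).1 ≤ x.1 + Fintype.card α

/-- The lowest level. -/
def base (r : Finset α → ℕ) (O : Finset α) (z : α → Code) : ℤ :=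
  if h : (O ∩ Ep r z).Nonempty then (O ∩ Ep r z).sup' h (fun o => (z o).1) - Fintype.card α else 0

/-- The level of a code. -/
def lvl (r : Finset α → ℕ) (O : Finset α) (z : α → Code) (x : Code) : ℕ :=
  (x.1 - base r O z).toNat

open Classical in
/-- The elements that pass the filter. -/
noncomputable def Fs (r : Finset α → ℕ) (O : Finset α) (z : α → Code) : Finset α :=
  univ.filter fun e => filt r O z e (z e)

/-- Their levels. -/
def levs (r : Finset α → ℕ) (O : Finset α) (z : α → Code) (e : α) : ℕ := lvl r O z (z e)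

/-- The seed: first sample, density sample, guards, real elements, parity. -/
abbrev Seed (α : Type) : Type := Finset α × Finset α × Finset α × Finset α × Fin 2

/-- The elements whose samples are used. -/
def used (ω : Seed α) : Finset α := ω.1 ∪ ω.2.1 ∪ ω.2.2.1

/-- The weight of a seed. -/
noncomputable def sw (ω : Seed α) : ℝ :=
  wt (1 / 2) ω.1 * (wt (1 / 2) ω.2.1 * (wt pc ω.2.2.1 * (wt pd ω.2.2.2.1 * (1 / 2))))

/-- The contexts, computed from the seed and the codes `z` of the samples. -/
noncomputable def oX (r : Finset α → ℕ) (ω : Seed α) (z : α → Code) (s : ℕ) : Finset α :=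
  cX r (Fs r ω.1 z) (levs r ω.1 z) ω.2.1 ω.2.2.1 s

/-- Eligibility for layer `s` of an element `e` that arrives with code `x`. -/
def elig (r : Finset α → ℕ) (ω : Seed α) (z : α → Code) (s : ℕ) (e : α) (x : Code) : Prop :=
  filt r ω.1 z e x ∧ e ∉ ω.2.1 ∧ e ∉ ω.2.2.1 ∧ e ∈ ω.2.2.2.1 ∧ s ≤ lvl r ω.1 z x ∧
    e ∈ cN r (Fs r ω.1 z) (levs r ω.1 z) ω.2.1 ω.2.2.1 (lvl r ω.1 z x) s ∧
      e ∉ cN r (Fs r ω.1 z) (levs r ω.1 z) ω.2.1 ω.2.2.1 (lvl r ω.1 z x) (s + 1)

open Classical in
/-- The eligible elements when the values have codes `y`. -/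
noncomputable def oW (r : Finset α → ℕ) (ω : Seed α) (z y : α → Code) (s : ℕ) : Finset α :=
  univ.filter fun e => elig r ω z s e (y e)

open Classical in
/-- The decision of the rule, in terms of codes. -/
def accD (r : Finset α → ℕ) (ω : Seed α) (z : α → Code) (p : List (α × Code)) (e : α)
    (x : Code) : Prop :=
  ∃ s, s % 2 = (ω.2.2.2.2 : ℕ) ∧ elig r ω z s e x ∧ e ∉ cl r (oX r ω z (s + 2) ∪
    ((p.filter fun q => decide (elig r ω z s q.1 q.2)).map Prod.fst).toFinset)

/-- The accepted set when samples have codes `z`, values have codes `y`, and the order is `l`. -/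
noncomputable def oA (r : Finset α → ℕ) (ω : Seed α) (z y : α → Code) (l : List α) : Finset α :=
  accS r (oX r ω z) (oW r ω z y) (ω.2.2.2.2 : ℕ) l

/-- The rank function of a matroid. -/
noncomputable def mrk (M : Matroid α) (A : Finset α) : ℕ := (M.eRk (A : Set α)).toNat

end Vale.Agent.P331.Full
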