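import Vale.Agent.P331.FDefs

/-! P331: the statements of the steps of the proof. -/

namespace Vale.Agent.P331.Full

open Finset

variable {α : Type} [Fintype α] [DecidableEq α]

/-- Basic facts on rank and span. -/
structure BR (r : Finset α → ℕ) : Prop where
  mem_cl : ∀ {e : α} {A : Finset α}, e ∈ cl r A ↔ r (insert e A) = r A
  not_mem_cl : ∀ {e : α} {A : Finset α}, e ∉ cl r A → r (insert e A) = r A + 1
  sub_cl : ∀ A : Finset α, A ⊆ cl r A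
  r_cl : ∀ A : Finset α, r (cl r A) = r A
  cl_mono : ∀ {A B : Finset α}, A ⊆ B → cl r A ⊆ cl r B
  cl_cl : ∀ A : Finset α, cl r (cl r A) = cl r A
  cl_sub : ∀ {A B : Finset α}, A ⊆ cl r B → cl r A ⊆ cl r B
  sub_cl_iff : ∀ {S T : Finset α}, T ⊆ cl r S ↔ r (S ∪ T) = r S
  r_le_of_sub_cl : ∀ {A B : Finset α}, A ⊆ cl r B → r A ≤ r B
  cl_eq_of_r : ∀ {A B : Finset α}, A ⊆ B → r B ≤ r A → cl r A = cl r B
  exch : ∀ {x y : α} {A : Finset α}, x ∈ cl r (insert y A) → x ∉ cl r A → y ∈ cl r (insert x A)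
  le_card : ∀ A : Finset α, r A ≤ A.card
  union_le : ∀ A B : Finset α, r (A ∪ B) ≤ r A + (B \ A).card
  rc_nonneg : ∀ Y T : Finset α, 0 ≤ rc r Y T
  rc_le_card : ∀ Y T : Finset α, rc r Y T ≤ (Y \ T).card
  rc_anti : ∀ (Y : Finset α) {T T' : Finset α}, T ⊆ T' → rc r Y T' ≤ rc r Y T
  rc_mono : ∀ {Y Y' : Finset α} (T : Finset α), Y ⊆ Y' → rc r Y T ≤ rc r Y' T
  rc_chain : ∀ Y Z T : Finset α, rc r (Y ∪ Z) T = rc r Y T + rc r Z (T ∪ Y)
  basis : ∀ Y T : Finset α, ∃ Y' ⊆ Y, r (T ∪ Y') = r T + Y'.card ∧ r (T ∪ Y') = r (T ∪ Y)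
  ind_sub : ∀ {T T' Y Z : Finset α}, r (T ∪ Y) = r T + Y.card → T' ⊆ T → Z ⊆ Y →
    r (T' ∪ Z) = r T' + Z.card

/-- Basic facts on expansions. -/
structure BX (r : Finset α → ℕ) : Prop where
  sub_ex : ∀ D B : Finset α, B ⊆ ex r D B
  dv_le : ∀ (D : Finset α) {B T : Finset α}, B ⊆ T → dv r D T ≤ dv r D (ex r D B)
  cl_ex : ∀ D B : Finset α, cl r (ex r D B) = ex r D B
  ex_mono : ∀ (D : Finset α) {B B' : Finset α}, B ⊆ B' → ex r D B ⊆ ex r D B'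
  span : ∀ D B : Finset α, r (B ∪ (D ∩ ex r D B)) = r (ex r D B)
  r_ex_empty : ∀ D : Finset α, 16384 * r (ex r D ∅) ≤ D.card

/-- Basic facts on the paths. -/
structure BP (r : Finset α → ℕ) : Prop where
  pB_succ : ∀ (Dl Cl : ℕ → Finset α) (h s : ℕ), pB r Dl Cl (h + 1) s =
    if s ≤ h + 1 then pN r Dl Cl h s ∪ (Cl h ∩ pN r Dl Cl h (s - 1)) else ∅
  pN_zero : ∀ (Dl Cl : ℕ → Finset α) (h : ℕ), pN r Dl Cl h 0 = univ
  pB_big : ∀ (Dl Cl : ℕ → Finset α) {h s : ℕ}, h + 1 ≤ s → pB r Dl Cl h s = ∅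
  pN_big : ∀ (Dl Cl : ℕ → Finset α) {h s : ℕ}, h + 2 ≤ s → pN r Dl Cl h s = ∅
  pN_act : ∀ (Dl Cl : ℕ → Finset α) (h : ℕ), pN r Dl Cl h (h + 1) = ex r (Dl h) ∅
  pB_sub_pN : ∀ (Dl Cl : ℕ → Finset α) (h s : ℕ), pB r Dl Cl h s ⊆ pN r Dl Cl h s
  pN_sub_pB : ∀ (Dl Cl : ℕ → Finset α) (h s : ℕ), pN r Dl Cl h s ⊆ pB r Dl Cl (h + 1) s
  pB_anti : ∀ (Dl Cl : ℕ → Finset α) (h : ℕ) {s s' : ℕ}, s ≤ s' →
    pB r Dl Cl h s' ⊆ pB r Dl Cl h s
  pN_anti : ∀ (Dl Cl : ℕ → Finset α) (h : ℕ) {s s' : ℕ}, s ≤ s' →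
    pN r Dl Cl h s' ⊆ pN r Dl Cl h s
  pN_mono : ∀ (Dl Cl : ℕ → Finset α) {h h' : ℕ} (s : ℕ), h ≤ h' →
    pN r Dl Cl h s ⊆ pN r Dl Cl h' s
  pN_sub_pX : ∀ (Dl Cl : ℕ → Finset α) (h s : ℕ), pN r Dl Cl h s ⊆ pX r Dl Cl s
  pX_anti : ∀ (Dl Cl : ℕ → Finset α) {s s' : ℕ}, s ≤ s' → pX r Dl Cl s' ⊆ pX r Dl Cl s
  pX_eq : ∀ (Dl Cl : ℕ → Finset α) (S h : ℕ), ∃ H, h ≤ H ∧ ∀ s ≤ S, pX r Dl Cl s = pN r Dl Cl H s
  pB_congr : ∀ {Dl Cl Dl' Cl' : ℕ → Finset α} {h : ℕ}, (∀ j < h, Dl j = Dl' j) →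
    (∀ j < h, Cl j = Cl' j) → ∀ s, pB r Dl Cl h s = pB r Dl' Cl' h s
  pN_congr : ∀ {Dl Cl Dl' Cl' : ℕ → Finset α} {h : ℕ}, (∀ j ≤ h, Dl j = Dl' j) →
    (∀ j < h, Cl j = Cl' j) → ∀ s, pN r Dl Cl h s = pN r Dl' Cl' h s
  qB_congr : ∀ {Dl Ul Dl' Ul' : ℕ → Finset α} {h : ℕ} (s : ℕ), (∀ j < h, Dl j = Dl' j) →
    (∀ j < h, Ul j = Ul' j) → qB r Dl s Ul h = qB r Dl' s Ul' h
  qN_mono : ∀ (Dl : ℕ → Finset α) (s : ℕ) {Ul Ul' : ℕ → Finset α}, (∀ j, Ul j ⊆ Ul' j) →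
    ∀ h, qN r Dl s Ul h ⊆ qN r Dl s Ul' h
  pN_eq_qN : ∀ (Dl Cl : ℕ → Finset α) {h s : ℕ}, s ≤ h →
    pN r Dl Cl h (s + 1) = qN r Dl s (fun j => Cl j ∩ pN r Dl Cl j s) h
  qB_sub_pB : ∀ (Dl Cl Rl : ℕ → Finset α) (h s : ℕ),
    qB r Dl s (qU r Dl Cl Rl s) h ⊆ pB r Dl Cl h s
  pB_sub_qB : ∀ (Dl Cl Rl : ℕ → Finset α) (h s : ℕ),
    pB r Dl Cl h (s + 2) ⊆ qB r Dl s (qU r Dl Cl Rl s) h
  pQ_sub_pN : ∀ (Dl Cl Rl : ℕ → Finset α) {h s : ℕ}, s ≤ h → pQ r Dl Cl Rl h s ⊆ pN r Dl Cl h s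
  pN_sub_pQ : ∀ (Dl Cl Rl : ℕ → Finset α) (h s : ℕ), pN r Dl Cl h (s + 2) ⊆ pQ r Dl Cl Rl h s
  win_sub_pQ : ∀ (Dl Cl Rl : ℕ → Finset α) {j h : ℕ} (s : ℕ), j < h →
    win r Dl Cl Rl j s ⊆ pQ r Dl Cl Rl h s
  sl_cW : ∀ (F : Finset α) (lev : α → ℕ) (Dc Gc Rc : Finset α) (h s : ℕ),
    sl lev (cW r F lev Dc Gc Rc s) h =
      win r (sD F lev Dc) (sC F lev Dc Gc) (sR F lev Dc Gc Rc) h s

/-- Basic facts on expectations over random sets. -/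
structure BE (α : Type) [Fintype α] [DecidableEq α] : Prop where
  wt_nonneg : ∀ {p : ℝ}, 0 ≤ p → p ≤ 1 → ∀ A : Finset α, 0 ≤ wt p A
  const : ∀ p c : ℝ, Ex p (fun _ : Finset α => c) = c
  add : ∀ (p : ℝ) (f g : Finset α → ℝ), Ex p (fun A => f A + g A) = Ex p f + Ex p g
  sub : ∀ (p : ℝ) (f g : Finset α → ℝ), Ex p (fun A => f A - g A) = Ex p f - Ex p g
  mul : ∀ (p c : ℝ) (f : Finset α → ℝ), Ex p (fun A => c * f A) = c * Ex p f
  sum : ∀ {ι : Type} (p : ℝ) (s : Finset ι) (f : ι → Finset α → ℝ),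
    Ex p (fun A => ∑ i ∈ s, f i A) = ∑ i ∈ s, Ex p (f i)
  mono : ∀ {p : ℝ}, 0 ≤ p → p ≤ 1 → ∀ {f g : Finset α → ℝ}, (∀ A, f A ≤ g A) → Ex p f ≤ Ex p g
  comm : ∀ (p q : ℝ) (f : Finset α → Finset α → ℝ),
    Ex p (fun A => Ex q fun B => f A B) = Ex q fun B => Ex p fun A => f A B
  split : ∀ (p : ℝ) (e : α) (f : Finset α → ℝ),
    Ex p f = Ex p fun A => p * f (insert e A) + (1 - p) * f (A.erase e)
  resample : ∀ (p : ℝ) (G : Finset α) (f : Finset α → ℝ),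
    Ex p f = Ex p fun A => Ex p fun B => f ((A \ G) ∪ (B ∩ G))
  prod : ∀ (p a b : ℝ) (G : Finset α),
    Ex p (fun A : Finset α => a ^ (G \ A).card * b ^ (G ∩ A).card) = ((1 - p) * a + p * b) ^ G.card
  card_inter : ∀ (p : ℝ) (Y : Finset α), Ex p (fun A => ((Y ∩ A).card : ℝ)) = p * Y.card
  card_sdiff : ∀ (p : ℝ) (Y : Finset α), Ex p (fun A => ((Y \ A).card : ℝ)) = (1 - p) * Y.card
  e3_add : ∀ f g : Finset α → Finset α → Finset α → ℝ,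
    E3 (fun a b c => f a b c + g a b c) = E3 f + E3 g
  e3_sub : ∀ f g : Finset α → Finset α → Finset α → ℝ,
    E3 (fun a b c => f a b c - g a b c) = E3 f - E3 g
  e3_mul : ∀ (t : ℝ) (f : Finset α → Finset α → Finset α → ℝ),
    E3 (fun a b c => t * f a b c) = t * E3 f
  e3_const : ∀ t : ℝ, E3 (fun _ _ _ : Finset α => t) = t
  e3_sum : ∀ {ι : Type} (s : Finset ι) (f : ι → Finset α → Finset α → Finset α → ℝ),
    E3 (fun a b c => ∑ i ∈ s, f i a b c) = ∑ i ∈ s, E3 (f i)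
  e3_mono : ∀ {f g : Finset α → Finset α → Finset α → ℝ}, (∀ a b c, f a b c ≤ g a b c) →
    E3 f ≤ E3 g
  seed : ∀ f : Seed α → ℝ, ∑ ω, sw ω * f ω = Ex (1 / 2) fun O => E3 fun a b c =>
    (1 / 2) * (f (O, a, b, c, 0) + f (O, a, b, c, 1))

/-- All basic facts. -/
structure Bas (r : Finset α → ℕ) : Prop where
  k : IsRk r
  R : BR r
  X : BX r
  P : BP r
  E : BE α

/-- The accepted set is independent. -/
def StInd (r : Finset α → ℕ) : Prop :=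
  ∀ (X W : ℕ → Finset α) (ε : ℕ) (l : List α), (∀ s, X (s + 2) ⊆ X s) → (∀ s, W s ⊆ X s) →
    r (accS r X W ε l) = (accS r X W ε l).card

/-- The number of accepted elements of level at least `h`. -/
def StCount (r : Finset α → ℕ) : Prop :=
  ∀ (X W : ℕ → Finset α) (ε : ℕ) (l : List α) (lev : α → ℕ) (h : ℕ) (S : Finset ℕ),
    (∀ s, X (s + 2) ⊆ X s) → (∀ s, W s ⊆ X s) → (∀ e, e ∈ l) → (∀ s ∈ S, s % 2 = ε) →
      ∑ s ∈ S, rc r (sl lev (W s) h) (X (s + 2) ∪ (W s).filter fun e => lev e < h) ≤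
        (((accS r X W ε l).filter fun e => h ≤ lev e).card : ℝ)

/-- The loss caused by guards and expansions of higher levels telescopes. -/
def StTele (r : Finset α → ℕ) : Prop :=
  ∀ (Dl Cl : ℕ → Finset α) (h H : ℕ), h ≤ H →
    ∑ s ∈ range (h + 1), (rc r (pN r Dl Cl H (s + 2)) (pN r Dl Cl h (s + 2)) -
        rc r (pN r Dl Cl H (s + 2)) (pN r Dl Cl h s)) ≤
      ∑ j ∈ Ico h H, (((Cl j).card : ℝ) + 2 * ((Dl (j + 1)).card : ℝ) / 16384)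

/-- Lighter windows capture an element less often than lighter guards do. -/
def StSafe (r : Finset α → ℕ) : Prop :=
  ∀ (F : Finset α) (lev : α → ℕ) (Dc : Finset α) (e : α) (h s : ℕ), s ≤ h →
    Ex pc (fun Gc => Ex pd fun Rc =>
        if e ∈ cQ r F lev Dc Gc Rc h s \ cN r F lev Dc Gc h (s + 1) then (1 : ℝ) else 0) ≤
      1 / 128 * Ex pc fun Gc => Ex pd fun Rc =>
        if e ∈ cN r F lev Dc Gc h (s + 1) \ cQ r F lev Dc Gc Rc h s then (1 : ℝ) else 0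

/-- The pivots and the sizes of their classes determine the classes. -/
def StUniq (r : Finset α → ℕ) : Prop :=
  ∀ (G J : Finset α) (K : ℕ → Finset α) (pos τ pos' τ' : α → ℕ),
    (∀ t t', t ≤ t' → K t' ⊆ K t) → Sched r K J pos τ → Sched r K J pos' τ' →
      (∀ j ∈ J, (own r G K J pos τ j).card = (own r G K J pos' τ' j).card) →
        ∀ j ∈ J, own r G K J pos τ j = own r G K J pos' τ' j

/-- Every chain of flats comes from a schedule. -/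
def StSched (r : Finset α → ℕ) : Prop :=
  ∀ (G : Finset α) (K Z : ℕ → Finset α) (m : ℕ), (∀ t t', t ≤ t' → K t' ⊆ K t) →
    (∀ t t', t ≤ t' → Z t' ⊆ Z t) → (∀ t < m, K t ⊆ Z t) → (∀ t < m, cl r (Z t) = Z t) →
      Z m = ∅ → ∃ (J : Finset α) (pos τ : α → ℕ), J ⊆ G ∧ Sched r K J pos τ ∧
        (∀ j ∈ J, τ j < m) ∧
        (∀ t < m, (((J.filter fun j => τ j = t).card : ℝ) =
          (r (K t ∪ (G ∩ Z t)) : ℝ) - r (K t ∪ (G ∩ Z (t + 1))))) ∧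
        (∀ j ∈ J, own r G K J pos τ j ⊆ Z (τ j) \ Z (τ j + 1)) ∧
        (∀ t < m, ∀ x ∈ G ∩ Z t, x ∉ cl r (K t ∪ (G ∩ Z (t + 1))) →
          ∃ j ∈ J, τ j = t ∧ x ∈ own r G K J pos τ j)

/-- The union bound over all schedules. -/
def StMom (r : Finset α → ℕ) : Prop :=
  ∀ (G : Finset α) (K : ℕ → Finset α) (J J' : Finset α → Finset α) (pos τ : Finset α → α → ℕ),
    (∀ t t', t ≤ t' → K t' ⊆ K t) → (∀ D, J D ⊆ G) → (∀ D, J' D ⊆ J D) →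
      (∀ D, Sched r K (J D) (pos D) (τ D)) →
        1 / 3 * Ex (1 / 2) (fun D =>
            ((((J' D).biUnion (own r G K (J D) (pos D) (τ D))) \ D).card : ℝ)) ≤
          Ex (1 / 2) (fun D => ((((J' D).biUnion (own r G K (J D) (pos D) (τ D))) ∩ D).card : ℝ)) +
            21 * Ex (1 / 2) (fun D => ((J D).card : ℝ)) + (G.card : ℝ) / 500

/-- Low density of the sample gives low density of the other elements. -/
def StHold (r : Finset α → ℕ) : Prop :=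
  ∀ (G : Finset α) (K : ℕ → Finset α) (Y : Finset α → ℕ → Finset α) (m : ℕ),
    (∀ t t', t ≤ t' → K t' ⊆ K t) →
    (∀ D i, Y D i ⊆ (G \ D) \ ex r (G ∩ D) (K i)) →
    (∀ D i, Y D (i + 1) ⊆ ex r (G ∩ D) (K i)) →
      Ex (1 / 2) (fun D => ∑ i ∈ range m, ((Y D i).card : ℝ)) ≤
        50000 * Ex (1 / 2) (fun D => ∑ i ∈ range m, rc r (Y D i) (ex r (G ∩ D) (K i))) +
          (G.card : ℝ) / 100

/-- Many elements are safe. -/
def StYlow (r : Finset α → ℕ) : Prop :=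
  ∀ (F : Finset α) (lev : α → ℕ) (I : Finset α) (h : ℕ), I ⊆ F → r I = I.card →
    ((sl lev I h).card : ℝ) / 2 - ((sl lev F h).card : ℝ) / 120 ≤
      E3 fun Dc Gc Rc => cy r F lev Dc Gc Rc h

/-- The safe elements have large rank. -/
def StYup (r : Finset α → ℕ) : Prop :=
  ∀ (F : Finset α) (lev : α → ℕ) (h : ℕ),
    (E3 fun Dc Gc Rc => cy r F lev Dc Gc Rc h) ≤
      50000 * (E3 fun Dc Gc Rc => crho r F lev Dc Gc Rc h) + ((sl lev F h).card : ℝ) / 50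

/-- From the rank of safe elements to the rank over the true context. -/
def StLoss (r : Finset α → ℕ) : Prop :=
  ∀ (F : Finset α) (lev : α → ℕ) (Dc Gc Rc : Finset α) (h : ℕ),
    crho r F lev Dc Gc Rc h - 2 * ((sC F lev Dc Gc h).card : ℝ) -
        ((((F \ Dc) ∩ Gc).filter fun e => h < lev e).card : ℝ) -
        ((F.filter fun e => h < lev e).card : ℝ) / 8192 ≤
      ∑ s ∈ range (h + 1), rc r (cY r F lev Dc Gc Rc h s \ Gc) (cT r F lev Dc Gc Rc h s)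

/-- Thinning. -/
def StThin (r : Finset α → ℕ) : Prop :=
  ∀ (F : Finset α) (lev : α → ℕ) (Dc Gc : Finset α) (h : ℕ),
    pd * Ex pd (fun Rc => ∑ s ∈ range (h + 1),
        rc r (cY r F lev Dc Gc Rc h s \ Gc) (cT r F lev Dc Gc Rc h s)) ≤
      Ex pd fun Rc => cg r F lev Dc Gc Rc h

/-- The estimate for one level. -/
def StLevel (r : Finset α → ℕ) : Prop :=
  ∀ (F : Finset α) (lev : α → ℕ) (I : Finset α) (h : ℕ), I ⊆ F → r I = I.card →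
    pd / 50000 * (((sl lev I h).card : ℝ) / 2 - ((sl lev F h).card : ℝ) / 28 -
        7 * ((F.filter fun e => h < lev e).card : ℝ)) ≤
      E3 fun Dc Gc Rc => cg r F lev Dc Gc Rc h

/-- The estimate for a fixed filtered set with levels. -/
def StCore (r : Finset α → ℕ) : Prop :=
  ∀ (F : Finset α) (lev : α → ℕ) (I : Finset α)
    (ord : Finset α → Finset α → Finset α → ℕ → List α), I ⊆ F → r I = I.card →
      (∀ a b c ε e, e ∈ ord a b c ε) →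
        1 / 2 ^ 53 * (8 * ∑ e ∈ I, (1024 : ℝ) ^ lev e - ∑ e ∈ F, (1024 : ℝ) ^ lev e) ≤
          E3 fun Dc Gc Rc => (1 / 2) * ∑ ε ∈ range 2,
            ∑ e ∈ accS r (cX r F lev Dc Gc) (cW r F lev Dc Gc Rc) ε (ord Dc Gc Rc ε),
              (1024 : ℝ) ^ lev e

/-- The greedy basis of a set `A` for the key. -/
noncomputable def gr (r : Finset α → ℕ) (z : α → Code) (A : Finset α) : Finset α :=
  A.filter fun e => e ∉ cl r (A.filter fun f => ky (z e) e < ky (z f) f)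

/-- The greedy basis is independent and optimal. -/
def StGreedy (r : Finset α → ℕ) : Prop :=
  ∀ (z : α → Code) (A : Finset α), r (gr r z A) = (gr r z A).card ∧
    ∀ I ⊆ A, r I = I.card → ∑ e ∈ I, rw1 (z e) ≤ ∑ e ∈ gr r z A, rw1 (z e)

/-- The filter keeps a good independent set and not much more, on average. -/
def StFilt (r : Finset α → ℕ) : Prop :=
  ∀ z : α → Code, 1 / 2 * ∑ e ∈ gr r z (Ep r z), rw1 (z e) ≤
    Ex (1 / 2) fun O => if (O ∩ Ep r z).Nonempty ∨ (Ep r z).card ≤ 1 then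
      8 * ∑ e ∈ gr r z (Ep r z) ∩ Fs r O z, rw1 (z e) - ∑ e ∈ Fs r O z, rw1 (z e) else 0

/-- The estimate for fixed codes. -/
def StOuter (r : Finset α → ℕ) : Prop :=
  ∀ (z : α → Code) (ord : Seed α → List α) (I : Finset α), (∀ ω e, e ∈ ord ω) →
    I ⊆ Ep r z → r I = I.card →
      1 / 2 ^ 54 * ∑ e ∈ I, rw1 (z e) ≤ ∑ ω, sw ω * ∑ e ∈ oA r ω z z (ord ω), rw1 (z e)

/-- The accepted set depends only on the used samples and on the other values. -/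
def StMask (r : Finset α → ℕ) : Prop :=
  ∀ (ω : Seed α) (z y w : α → Code) (l : List α), (∀ e ∈ used ω, w e = z e) →
    (∀ e ∉ used ω, w e = y e) →
      oA r ω z y l = oA r ω w w l ∧ ∀ e ∈ oA r ω z y l, e ∉ used ω ∧ (y e).2 = true

/-- The decisions of the rule give the accepted set, which is independent. -/
def StAcc (r : Finset α → ℕ) : Prop :=
  ∀ (ω : Seed α) (z y : α → Code) (l : List α),
    (∀ e, e ∈ oA r ω z y l ↔ e ∈ l ∧
      accD r ω z ((l.takeWhile fun f => f ≠ e).map fun f => (f, y f)) e (y e)) ∧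
    r (oA r ω z y l) = (oA r ω z y l).card

/-- The rank function of a matroid. -/
def StMat (M : Matroid α) : Prop :=
  IsRk (mrk M) ∧ ∀ I : Finset α, M.Indep (I : Set α) ↔ mrk M I = I.card

end Vale.Agent.P331.Full
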