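import Vale.Agent.P331.Defs

/-! P331: the greedy basis of a weight vector. -/

namespace Vale.Agent.P331

open MeasureTheory Set
open scoped NNReal ENNReal

variable {α : Type} [Fintype α] [DecidableEq α]

/-- Sorting key: larger weight first, ties broken by a fixed numbering. -/
noncomputable def key (w : α → ℝ≥0) (e : α) : ℝ≥0 ×ₗ ℕ := toLex (w e, (Fintype.equivFin α e : ℕ))

omit [DecidableEq α] in
theorem key_inj (w : α → ℝ≥0) : Function.Injective (key w) := fun _ _ h =>
  (Fintype.equivFin α).injective (Fin.ext (congrArg (fun p => (ofLex p).2) h))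

omit [DecidableEq α] in
theorem key_le {w : α → ℝ≥0} {e f : α} (h : key w e < key w f) : w e ≤ w f := by
  rcases Prod.Lex.toLex_lt_toLex.1 h with h | h
  · exact h.le
  · exact h.1.le

/-- The greedy basis. -/
def gb (M : Matroid α) (w : α → ℝ≥0) : Set α :=
  {e | e ∈ M.E ∧ e ∉ M.closure {f | key w e < key w f}}

variable {M : Matroid α}

theorem gb_indep (w : α → ℝ≥0) : M.Indep (gb M w) := by
  have h : ∀ T : Finset α, (T : Set α) ⊆ gb M w → M.Indep (T : Set α) := by
    intro T
    induction T using Finset.induction_on_min_value (key w) with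
    | empty => intro _; simp
    | insert e T he hmin ih =>
      intro hT
      rw [Finset.coe_insert] at hT ⊢
      have h1 := ih ((subset_insert _ _).trans hT)
      have h2 := hT (mem_insert _ _)
      refine (h1.insert_indep_iff_of_notMem (by simpa using he)).2 ⟨h2.1, fun h3 => h2.2 ?_⟩
      refine M.closure_subset_closure (fun f hf => ?_) h3
      exact lt_of_le_of_ne (hmin f hf) fun h4 => he (key_inj w h4 ▸ hf)
  simpa using h (toFinite (gb M w)).toFinset (by simp)

omit [DecidableEq α] in
theorem gb_span (w : α → ℝ≥0) (t : ℝ≥0) (e : α) :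
    e ∈ M.E → t ≤ w e → e ∈ M.closure (gb M w ∩ {f | t ≤ w f}) := by
  have : IsTrans α (fun f e => key w e < key w f) := ⟨fun _ _ _ h1 h2 => h2.trans h1⟩
  have : Std.Irrefl (fun f e => key w e < key w f) := ⟨fun _ => lt_irrefl _⟩
  induction e using (Finite.wellFounded_of_trans_of_irrefl
    (fun f e => key w e < key w f)).induction with
  | _ e ih =>
    intro he ht
    by_cases h : e ∈ gb M w
    · exact M.mem_closure_of_mem' ⟨h, ht⟩ he
    · have h1 : e ∈ M.closure {f | key w e < key w f} := by
        by_contra h2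
        exact h ⟨he, h2⟩
      rw [← M.closure_inter_ground] at h1
      exact M.closure_subset_closure_of_subset_closure
        (fun f hf => ih f hf.1 hf.2 (ht.trans (key_le hf.1))) h1

omit [Fintype α] [DecidableEq α] in
theorem sum_le_of_card (w : α → ℝ≥0) (I J : Finset α)
    (h : ∀ t, (I.filter fun e => t ≤ w e).card ≤ (J.filter fun e => t ≤ w e).card) :
    ∑ e ∈ I, (w e : ℝ≥0∞) ≤ ∑ e ∈ J, (w e : ℝ≥0∞) := by
  have k : ∀ K : Finset α, ∑ e ∈ K, (w e : ℝ≥0∞) =
      ∫⁻ t in Ioi (0 : ℝ), ((K.filter fun e => t.toNNReal ≤ w e).card : ℝ≥0∞) := by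
    intro K
    simp only [Finset.card_filter, Nat.cast_sum, Nat.cast_ite, Nat.cast_one, Nat.cast_zero]
    rw [lintegral_finsetSum]
    · refine Finset.sum_congr rfl fun e _ => ?_
      have h1 : (fun t : ℝ => if t.toNNReal ≤ w e then (1 : ℝ≥0∞) else 0) =
          (Iic (w e : ℝ)).indicator 1 := by
        funext t
        simp [indicator, Real.toNNReal_le_iff_le_coe]
      rw [h1, lintegral_indicator_one measurableSet_Iic, Measure.restrict_apply measurableSet_Iic,
        inter_comm, Ioi_inter_Iic, Real.volume_Ioc]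
      simp
    · intro e _
      exact Measurable.ite (measurableSet_le measurable_real_toNNReal measurable_const)
        measurable_const measurable_const
  rw [k, k]
  exact lintegral_mono fun t => Nat.cast_le.2 (h _)

omit [DecidableEq α] in
theorem opt_le (w : α → ℝ≥0) :
    opt M w ≤ ∑ e, (gb M w).indicator (fun e => (w e : ℝ≥0∞)) e := by
  classical
  refine iSup₂_le fun I hI => ?_
  have h1 : ∑ e, (gb M w).indicator (fun e => (w e : ℝ≥0∞)) e =
      ∑ e ∈ Finset.univ.filter (· ∈ gb M w), (w e : ℝ≥0∞) := by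
    rw [Finset.sum_filter]
    rfl
  rw [h1]
  refine sum_le_of_card w _ _ fun t => ?_
  have h2 : M.Indep ((I.filter fun e => t ≤ w e : Finset α) : Set α) :=
    hI.subset (Finset.coe_subset.2 (Finset.filter_subset _ _))
  have h3 := h2.encard_le_eRk_of_subset (X := M.closure (gb M w ∩ {f | t ≤ w f})) fun e he => by
    have := Finset.mem_filter.1 (Finset.mem_coe.1 he)
    exact gb_span w t e (hI.subset_ground this.1) this.2
  rw [M.eRk_closure_eq] at h3
  have h4 := h3.trans (M.eRk_le_encard _)
  have h5 : gb M w ∩ {f | t ≤ w f} =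
      (((Finset.univ.filter (· ∈ gb M w)).filter fun e => t ≤ w e : Finset α) : Set α) := by
    ext e; simp
  rw [h5, encard_coe_eq_coe_finsetCard, encard_coe_eq_coe_finsetCard] at h4
  exact_mod_cast h4

omit [DecidableEq α] in
theorem change_aux {w w' : α → ℝ≥0} {e f : α} (h : ∀ g, g ≠ e → w g = w' g) (hf : f ≠ e)
    (h1 : f ∈ gb M w) (h2 : f ∉ gb M w') :
    f ∉ M.closure {g | g ≠ e ∧ key w f < key w g} ∧
      f ∈ M.closure (insert e {g | g ≠ e ∧ key w f < key w g}) := by
  refine ⟨fun h3 => h1.2 (M.closure_subset_closure (fun g hg => hg.2) h3), ?_⟩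
  have h4 : f ∈ M.closure {g | key w' f < key w' g} := by
    by_contra h5
    exact h2 ⟨h1.1, h5⟩
  refine M.closure_subset_closure (fun g hg => ?_) h4
  by_cases hg' : g = e
  · exact Or.inl hg'
  · refine Or.inr ⟨hg', ?_⟩
    have : key w' f < key w' g := hg
    rwa [key, key, ← h f hf, ← h g hg'] at this

omit [DecidableEq α] in
/-- Changing one weight changes the greedy basis in at most one other element. -/
theorem change_unique {w w' : α → ℝ≥0} {e f g : α} (h : ∀ g, g ≠ e → w g = w' g) (hf : f ≠ e)
    (hg : g ≠ e) (h1 : ¬ (f ∈ gb M w ↔ f ∈ gb M w')) (h2 : ¬ (g ∈ gb M w ↔ g ∈ gb M w')) :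
    f = g := by
  have k : ∀ f, f ≠ e → ¬ (f ∈ gb M w ↔ f ∈ gb M w') →
      f ∉ M.closure {g | g ≠ e ∧ key w f < key w g} ∧
        f ∈ M.closure (insert e {g | g ≠ e ∧ key w f < key w g}) := fun f hf h1 => by
    by_cases h3 : f ∈ gb M w
    · exact change_aux h hf h3 fun h4 => h1 ⟨fun _ => h4, fun _ => h3⟩
    · have h4 : f ∈ gb M w' := by
        by_contra h4
        exact h1 ⟨fun h5 => absurd h5 h3, fun h5 => absurd h5 h4⟩
      have h5 := change_aux (fun g hg => (h g hg).symm) hf h4 h3
      have h6 : {g | g ≠ e ∧ key w' f < key w' g} = {g | g ≠ e ∧ key w f < key w g} := by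
        ext g
        refine and_congr_right fun hg => ?_
        rw [key, key, key, key, h f hf, h g hg]
      rwa [h6] at h5
  have k2 : ∀ f g, f ≠ e → g ≠ e → ¬ (f ∈ gb M w ↔ f ∈ gb M w') →
      ¬ (g ∈ gb M w ↔ g ∈ gb M w') → ¬ key w g < key w f := fun f g hf hg h1 h2 hlt => by
    have a1 := k f hf h1
    have a2 := k g hg h2
    have a3 := Matroid.mem_closure_insert a1.1 a1.2
    have a4 : e ∈ M.closure {x | x ≠ e ∧ key w g < key w x} := by
      refine M.closure_subset_closure (fun x hx => ?_) a3
      rcases hx with rfl | hx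
      · exact ⟨hf, hlt⟩
      · exact ⟨hx.1, hlt.trans hx.2⟩
    rw [Matroid.closure_insert_eq_of_mem_closure a4] at a2
    exact a2.1 a2.2
  exact key_inj w (le_antisymm (not_lt.1 (k2 f g hf hg h1 h2)) (not_lt.1 (k2 g f hg hf h2 h1)))

omit [DecidableEq α] in
theorem meas_gb (e : α) : Measurable fun w : α → ℝ≥0 => e ∈ gb M w := by
  have h : Measurable fun (w : α → ℝ≥0) (f : α) => key w e < key w f := by
    refine measurable_pi_lambda _ fun f => ?_
    simp only [key, Prod.Lex.toLex_lt_toLex]
    refine Measurable.or ?_ (Measurable.and ?_ measurable_const)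
    · exact measurableSet_setOfPred.1 (measurableSet_lt (measurable_pi_apply e) (measurable_pi_apply f))
    · exact measurableSet_setOfPred.1
        (measurableSet_eq_fun (measurable_pi_apply e) (measurable_pi_apply f))
  exact (Measurable.of_discrete (f := fun p : α → Prop => e ∈ M.E ∧ e ∉ M.closure {f | p f})).comp h

omit [DecidableEq α] in
theorem meas_opt : Measurable (opt M) :=
  Measurable.iSup fun _ => Measurable.iSup_Prop _
    (Finset.measurable_sum _ fun e _ => (measurable_pi_apply e).coe_nnreal_ennreal)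

end Vale.Agent.P331
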